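import Vale.Agent.Lib.P084.Dim3N.Wrap

/-!
Tingley's problem for strictly convex spaces: every strictly convex real normed space of dimension
at least three, possibly infinite, has the Mazur-Ulam property, with an arbitrary normed target.
-/

namespace Vale.Agent.Results.P084.A_A_strictly_convex

/-- Let `X` be a real strictly convex normed space of dimension at least three (possibly infinite)
and `Y` any real normed space. Then every surjective isometry between the unit spheres of `X` and
`Y` is the restriction of a surjective linear isometry of `X` onto `Y`. -/
theorem result {X Y : Type*} [NormedAddCommGroup X] [NormedSpace ℝ X] [StrictConvexSpace ℝ X]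
    [NormedAddCommGroup Y] [NormedSpace ℝ Y]
    (hrank : (3 : Cardinal) ≤ Module.rank ℝ X)
    (f : Metric.sphere (0 : X) 1 → Metric.sphere (0 : Y) 1)
    (hf : Isometry f) (hs : Function.Surjective f) :
    ∃ T : X ≃ₗᵢ[ℝ] Y, ∀ x : Metric.sphere (0 : X) 1, T (x : X) = (f x : Y) :=
  Vale.Agent.Lib.P084.Dim3N.sphere_isometry_strict3 hrank f hf hs

end Vale.Agent.Results.P084.A_A_strictly_convex
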