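import Vale.Agent.Lib.P084.Dim3.Smooth
import Vale.Agent.Lib.P084.Dim4.Strict

/-!
Tingley's problem for strictly convex spaces of dimension at least three: no assumption at all in
dimension at least four (possibly infinite), and differentiability of the norm in dimension three.
-/

namespace Vale.Agent.Results.P084.A_A_union

/-- Let `X` be a real strictly convex normed space of dimension at least three (possibly infinite);
if the dimension of `X` is exactly three, suppose moreover that the norm of `X` is differentiable
away from the origin. Let `Y` be any real normed space. Then every surjective isometry between the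
unit spheres of `X` and `Y` is the restriction of a surjective linear isometry of `X` onto `Y`. -/
theorem result {X Y : Type*} [NormedAddCommGroup X] [NormedSpace ℝ X] [StrictConvexSpace ℝ X]
    [NormedAddCommGroup Y] [NormedSpace ℝ Y]
    (hrank : (3 : Cardinal) ≤ Module.rank ℝ X)
    (hsmooth : Module.rank ℝ X = 3 → ∀ v : X, v ≠ 0 → DifferentiableAt ℝ (fun z : X => ‖z‖) v)
    (f : Metric.sphere (0 : X) 1 → Metric.sphere (0 : Y) 1)
    (hf : Isometry f) (hs : Function.Surjective f) :
    ∃ T : X ≃ₗᵢ[ℝ] Y, ∀ x : Metric.sphere (0 : X) 1, T (x : X) = (f x : Y) := by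
  by_cases h : Module.rank ℝ X = 3
  · have hfin : FiniteDimensional ℝ X := by
      have h3 : Module.rank ℝ X = ((3 : ℕ) : Cardinal) := by simpa using h
      exact Module.finite_of_rank_eq_nat h3
    have hdim : Module.finrank ℝ X = 3 := by
      have h3 : Module.rank ℝ X = ((3 : ℕ) : Cardinal) := by simpa using h
      exact Module.finrank_eq_of_rank_eq h3
    exact Vale.Agent.Lib.P084.Dim3.sphere_isometry_dim3 hdim
      (Vale.Agent.Lib.P084.Dim3.c1Norm_of_differentiable (hsmooth h)) f hf hs
  · have hlt : (3 : Cardinal) < Module.rank ℝ X := lt_of_le_of_ne hrank (Ne.symm h)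
    have h4 : (4 : Cardinal) ≤ Module.rank ℝ X := by
      have := Cardinal.add_one_le_of_lt hlt
      have e : (3 : Cardinal) + 1 = 4 := by norm_num
      rwa [e] at this
    exact Vale.Agent.Lib.P084.Dim4.sphere_isometry_strict h4 f hf hs

end Vale.Agent.Results.P084.A_A_union
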