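import Vale.Agent.Lib.P084.Main

/-!
Tingley's problem for finite dimensional spaces of dimension at least three whose norms are
`C^2` away from the origin, with strictly convex target.
-/

namespace Vale.Agent.Results.P084.A_C2_main

/-- Let `X` be a real finite dimensional normed space of dimension at least three and `Y` a real
strictly convex normed space, both with norms of class `C^2` away from the origin. Then every
surjective isometry between the unit spheres of `X` and `Y` is the restriction of a surjective
linear isometry of `X` onto `Y`. -/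
theorem result {X Y : Type*} [NormedAddCommGroup X] [NormedSpace ℝ X] [FiniteDimensional ℝ X]
    [NormedAddCommGroup Y] [NormedSpace ℝ Y] [StrictConvexSpace ℝ Y]
    (hdim : 3 ≤ Module.finrank ℝ X)
    (hX : ∀ x : X, x ≠ 0 → ContDiffAt ℝ 2 (fun z : X => ‖z‖) x)
    (hY : ∀ y : Y, y ≠ 0 → ContDiffAt ℝ 2 (fun z : Y => ‖z‖) y)
    (f : Metric.sphere (0 : X) 1 → Metric.sphere (0 : Y) 1)
    (hf : Isometry f) (hs : Function.Surjective f) :
    ∃ T : X ≃ₗᵢ[ℝ] Y, ∀ x : Metric.sphere (0 : X) 1, T (x : X) = (f x : Y) :=
  Vale.Agent.Lib.P084.sphere_isometry_extends hX hY hdim f hf hs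

end Vale.Agent.Results.P084.A_C2_main
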