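import Vale.Agent.Lib.P084.Dim3.Wrap

/-!
Tingley's problem in dimension three: a strictly convex space with `C^1` norm has the Mazur-Ulam
property.
-/

namespace Vale.Agent.Results.P084.A_dim3_C1

/-- Let `X` be a real normed space of dimension three which is strictly convex and whose norm is
`C^1` away from the origin, and let `Y` be any real normed space. Then every surjective isometry
between the unit spheres of `X` and `Y` is the restriction of a surjective linear isometry of `X`
onto `Y`. -/
theorem result {X Y : Type*} [NormedAddCommGroup X] [NormedSpace ℝ X] [FiniteDimensional ℝ X]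
    [StrictConvexSpace ℝ X] [NormedAddCommGroup Y] [NormedSpace ℝ Y]
    (hdim : Module.finrank ℝ X = 3)
    (hX : ∀ v : X, v ≠ 0 → ContDiffAt ℝ 1 (fun z : X => ‖z‖) v)
    (f : Metric.sphere (0 : X) 1 → Metric.sphere (0 : Y) 1)
    (hf : Isometry f) (hs : Function.Surjective f) :
    ∃ T : X ≃ₗᵢ[ℝ] Y, ∀ x : Metric.sphere (0 : X) 1, T (x : X) = (f x : Y) :=
  Vale.Agent.Lib.P084.Dim3.sphere_isometry_dim3 hdim hX f hf hs

end Vale.Agent.Results.P084.A_dim3_C1
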