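import Vale.Agent.Lib.P084.Dim4.Wrap

/-!
Tingley's problem for finite dimensional spaces of dimension at least four with strictly convex
target, with no smoothness assumption on the norms.
-/

namespace Vale.Agent.Results.P084.B_dim4

/-- Let `X` be a real finite dimensional normed space of dimension at least four and `Y` a real
strictly convex normed space. Then every surjective isometry between the unit spheres of `X` and
`Y` is the restriction of a surjective linear isometry of `X` onto `Y`. -/
theorem result {X Y : Type*} [NormedAddCommGroup X] [NormedSpace ℝ X] [FiniteDimensional ℝ X]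
    [NormedAddCommGroup Y] [NormedSpace ℝ Y] [StrictConvexSpace ℝ Y]
    (hdim : 4 ≤ Module.finrank ℝ X)
    (f : Metric.sphere (0 : X) 1 → Metric.sphere (0 : Y) 1)
    (hf : Isometry f) (hs : Function.Surjective f) :
    ∃ T : X ≃ₗᵢ[ℝ] Y, ∀ x : Metric.sphere (0 : X) 1, T (x : X) = (f x : Y) :=
  Vale.Agent.Lib.P084.Dim4.sphere_isometry_dim4 hdim f hf hs

end Vale.Agent.Results.P084.B_dim4
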